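import Vale.Agent.Lib.P230.Main

open MeasureTheory

namespace Vale.Agent.Results.P230.PolylogLatticeCovering

/-- There is an absolute constant `C` such that every convex body `K` in `ℝⁿ`, `n ≥ 2`, admits a
lattice covering `K + A ℤⁿ = ℝⁿ` of density `vol K / |det A| ≤ C n (log n)^10`. -/
theorem result : ∃ C : ℝ, ∀ n : ℕ, 2 ≤ n → ∀ K : Set (Fin n → ℝ), IsCompact K → Convex ℝ K →
    (interior K).Nonempty →
    ∃ A : Matrix (Fin n) (Fin n) ℝ, A.det ≠ 0 ∧
      (∀ x : Fin n → ℝ, ∃ u : Fin n → ℤ, ∃ y ∈ K, x = y + A.mulVec (fun i => (u i : ℝ))) ∧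
      (volume K).toReal ≤ C * (n : ℝ) * Real.log n ^ 10 * |A.det| :=
  Vale.Agent.Lib.P230.main_bound

end Vale.Agent.Results.P230.PolylogLatticeCovering
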