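import Vale.Agent.Lib.P230.Main2

open MeasureTheory

namespace Vale.Agent.Results.P230.SquareLogLatticeCovering

/-- There is an absolute constant `C` such that every convex body `K` in `ℝⁿ`, `n ≥ 3`, admits a
lattice covering `K + A ℤⁿ = ℝⁿ` of density `vol K / |det A| ≤ C n (log n)^2 (log log n)^4`. -/
theorem result : ∃ C : ℝ, ∀ n : ℕ, 3 ≤ n → ∀ K : Set (Fin n → ℝ), IsCompact K → Convex ℝ K →
    (interior K).Nonempty →
    ∃ A : Matrix (Fin n) (Fin n) ℝ, A.det ≠ 0 ∧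
      (∀ x : Fin n → ℝ, ∃ u : Fin n → ℤ, ∃ y ∈ K, x = y + A.mulVec (fun i => (u i : ℝ))) ∧
      (volume K).toReal ≤
        C * (n : ℝ) * Real.log n ^ 2 * Real.log (Real.log n) ^ 4 * |A.det| :=
  Vale.Agent.Lib.P230.main_bound2

end Vale.Agent.Results.P230.SquareLogLatticeCovering
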